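import Vale.Agent.P043.T2.FinDefs

/-! # P043 in the plane: gluing of the two families of boxes -/

namespace Vale.Agent.P043.T2.H225

/-- matching of two families with equal counts per cell and layer -/
theorem glue {X Y C L : Type*} [Fintype X] [Fintype Y] [DecidableEq C] [DecidableEq L]
    (P : L → X → Bool) (Q : C → Y → Bool) (cell : X → C) (lay : Y → L) (good : C → Prop)
    (hcard : ∀ c l, good c → (Finset.univ.filter fun x => P l x = true ∧ cell x = c).card =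
      (Finset.univ.filter fun y => Q c y = true ∧ lay y = l).card) :
    ∃ R : X → Y → Prop,
      (∀ x y, R x y → good (cell x) ∧ P (lay y) x = true ∧ Q (cell x) y = true) ∧
      (∀ x l, good (cell x) → P l x = true → ∃! y, lay y = l ∧ R x y) ∧
      (∀ y c, good c → Q c y = true → ∃! x, cell x = c ∧ R x y) := by
  classical
  have e : ∀ c l, good c → ({x : X // P l x = true ∧ cell x = c} ≃
      {y : Y // Q c y = true ∧ lay y = l}) := by
    intro c l hg
    refine Fintype.equivOfCardEq ?_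
    rw [Fintype.card_subtype, Fintype.card_subtype]
    exact hcard c l hg
  refine ⟨fun x y => ∃ (hg : good (cell x)) (hp : P (lay y) x = true),
    ((e (cell x) (lay y) hg ⟨x, hp, rfl⟩ : {y : Y // Q (cell x) y = true ∧ lay y = lay _}) : Y)
      = y, ?_, ?_, ?_⟩
  · rintro x y ⟨hg, hp, he⟩
    refine ⟨hg, hp, ?_⟩
    have := (e (cell x) (lay y) hg ⟨x, hp, rfl⟩).2.1
    rwa [he] at this
  · intro x l hg hp
    have key : ∀ l' (hp' : P l' x = true), l' = l →
        ((e (cell x) l' hg ⟨x, hp', rfl⟩).1 : Y) = (e (cell x) l hg ⟨x, hp, rfl⟩).1 := by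
      intro l' hp' h
      subst h
      rfl
    have hl : lay (e (cell x) l hg ⟨x, hp, rfl⟩).1 = l := (e (cell x) l hg ⟨x, hp, rfl⟩).2.2
    have hp2 : P (lay (e (cell x) l hg ⟨x, hp, rfl⟩).1) x = true := by
      rw [hl]
      exact hp
    refine ⟨(e (cell x) l hg ⟨x, hp, rfl⟩).1, ⟨hl, hg, hp2, key _ hp2 hl⟩, ?_⟩
    · rintro y ⟨hy, hg', hp', he⟩
      rw [← he]
      exact key (lay y) hp' hy
  · intro y c hg hq
    set x := ((e c (lay y) hg).symm ⟨y, hq, rfl⟩) with hx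
    have hc : cell x.1 = c := x.2.2
    have hex : e c (lay y) hg x = ⟨y, hq, rfl⟩ := by rw [hx, Equiv.apply_symm_apply]
    have key : ∀ (z : X) (c' : C) (hz : cell z = c') (hcc : c' = c) (hg' : good c')
        (hp' : P (lay y) z = true) (hp'' : P (lay y) z = true ∧ cell z = c),
        ((e c' (lay y) hg' ⟨z, hp', hz⟩).1 : Y) = (e c (lay y) hg ⟨z, hp''⟩).1 := by
      intro z c' hz hcc hg' hp' hp''
      subst hcc
      rfl
    have hgx : good (cell x.1) := by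
      rw [hc]
      exact hg
    refine ⟨x.1, ⟨hc, hgx, x.2.1, ?_⟩, ?_⟩
    · rw [key x.1 (cell x.1) rfl hc hgx x.2.1 x.2]
      exact congrArg Subtype.val hex
    · rintro z ⟨hz, hg', hp', he⟩
      rw [key z (cell z) rfl hz hg' hp' ⟨hp', hz⟩] at he
      have h2 : e c (lay y) hg ⟨z, hp', hz⟩ = ⟨y, hq, rfl⟩ := Subtype.ext he
      have h3 : (⟨z, hp', hz⟩ : {x : X // P (lay y) x = true ∧ cell x = c}) = x := by
        rw [hx, ← h2, Equiv.symm_apply_apply]
      exact congrArg Subtype.val h3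

theorem kap_true (i : Ix) : kap (row true i) =
    (((i.1 : ℕ) : ZMod 4), ((i.2.1 : ℕ) : ZMod 9), 5 * ((i.2.2.1 : ℕ) : ZMod 25),
      7 * ((i.2.2.2 : ℕ) : ZMod 49)) := by
  have a1 : (11025 : ZMod 4) = 1 := by decide
  have a2 : (34300 : ZMod 4) = 0 := by decide
  have a3 : (15876 : ZMod 4) = 0 := by decide
  have a4 : (27000 : ZMod 4) = 0 := by decide
  have b1 : (11025 : ZMod 9) = 0 := by decide
  have b2 : (34300 : ZMod 9) = 1 := by decide
  have b3 : (15876 : ZMod 9) = 0 := by decide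
  have b4 : (27000 : ZMod 9) = 0 := by decide
  have c1 : (11025 : ZMod 25) = 0 := by decide
  have c2 : (34300 : ZMod 25) = 0 := by decide
  have c3 : (15876 : ZMod 25) = 1 := by decide
  have c4 : (27000 : ZMod 25) = 0 := by decide
  have e1 : (11025 : ZMod 49) = 0 := by decide
  have e2 : (34300 : ZMod 49) = 0 := by decide
  have e3 : (15876 : ZMod 49) = 0 := by decide
  have e4 : (27000 : ZMod 49) = 1 := by decide
  simp [kap, row, a1, a2, a3, a4, b1, b2, b3, b4, c1, c2, c3, c4, e1, e2, e3, e4]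

theorem kap_false (i : Ix) : kap (row false i) =
    (2 * ((i.1 : ℕ) : ZMod 4), 3 * ((i.2.1 : ℕ) : ZMod 9), ((i.2.2.1 : ℕ) : ZMod 25),
      ((i.2.2.2 : ℕ) : ZMod 49)) := by
  have a1 : (11025 : ZMod 4) = 1 := by decide
  have a2 : (34300 : ZMod 4) = 0 := by decide
  have a3 : (15876 : ZMod 4) = 0 := by decide
  have a4 : (27000 : ZMod 4) = 0 := by decide
  have b1 : (11025 : ZMod 9) = 0 := by decide
  have b2 : (34300 : ZMod 9) = 1 := by decide
  have b3 : (15876 : ZMod 9) = 0 := by decide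
  have b4 : (27000 : ZMod 9) = 0 := by decide
  have c1 : (11025 : ZMod 25) = 0 := by decide
  have c2 : (34300 : ZMod 25) = 0 := by decide
  have c3 : (15876 : ZMod 25) = 1 := by decide
  have c4 : (27000 : ZMod 25) = 0 := by decide
  have e1 : (11025 : ZMod 49) = 0 := by decide
  have e2 : (34300 : ZMod 49) = 0 := by decide
  have e3 : (15876 : ZMod 49) = 0 := by decide
  have e4 : (27000 : ZMod 49) = 1 := by decide
  simp [kap, row, a1, a2, a3, a4, b1, b2, b3, b4, c1, c2, c3, c4, e1, e2, e3, e4]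

theorem tab_lt (l : Fin 7) (k : Fin 5) : tab l k < 17 := by
  revert l k
  decide

/-- cell of a position -/
def cell (x : ZMod 4 × ZMod 9) : Fin 2 × Fin 3 :=
  (⟨x.1.val % 2, Nat.mod_lt _ (by norm_num)⟩, ⟨x.2.val % 3, Nat.mod_lt _ (by norm_num)⟩)

/-- layer of a row -/
def lay (y : ZMod 25 × ZMod 49) : Fin 5 × Fin 7 :=
  (⟨y.1.val % 5, Nat.mod_lt _ (by norm_num)⟩, ⟨y.2.val % 7, Nat.mod_lt _ (by norm_num)⟩)

theorem res4 (i i' : ZMod 4) (h : i'.val % 2 = i.val % 2) :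
    ∃! a : Fin 2, i - 2 * ((a : ℕ) : ZMod 4) = i' := by
  have key : ∀ i i' : ZMod 4, i'.val % 2 = i.val % 2 → ∃ a : Fin 2,
      i - 2 * ((a : ℕ) : ZMod 4) = i' ∧
      ∀ b : Fin 2, i - 2 * ((b : ℕ) : ZMod 4) = i' → b = a := by
    decide +kernel
  obtain ⟨a, h1, h2⟩ := key i i' h
  exact ⟨a, h1, h2⟩

theorem res4' : ∀ (i : ZMod 4) (a : Fin 2), (i - 2 * ((a : ℕ) : ZMod 4)).val % 2 = i.val % 2 := by
  decide +kernel

theorem res9 (i i' : ZMod 9) (h : i'.val % 3 = i.val % 3) :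
    ∃! a : Fin 3, i - 3 * ((a : ℕ) : ZMod 9) = i' := by
  have key : ∀ i i' : ZMod 9, i'.val % 3 = i.val % 3 → ∃ a : Fin 3,
      i - 3 * ((a : ℕ) : ZMod 9) = i' ∧
      ∀ b : Fin 3, i - 3 * ((b : ℕ) : ZMod 9) = i' → b = a := by
    decide +kernel
  obtain ⟨a, h1, h2⟩ := key i i' h
  exact ⟨a, h1, h2⟩

theorem res9' : ∀ (i : ZMod 9) (a : Fin 3), (i - 3 * ((a : ℕ) : ZMod 9)).val % 3 = i.val % 3 := by
  decide +kernel

theorem res25 (i i' : ZMod 25) (h : i'.val % 5 = i.val % 5) :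
    ∃! a : Fin 5, i - 5 * ((a : ℕ) : ZMod 25) = i' := by
  have key : ∀ i i' : ZMod 25, i'.val % 5 = i.val % 5 → ∃ a : Fin 5,
      i - 5 * ((a : ℕ) : ZMod 25) = i' ∧
      ∀ b : Fin 5, i - 5 * ((b : ℕ) : ZMod 25) = i' → b = a := by
    decide +kernel
  obtain ⟨a, h1, h2⟩ := key i i' h
  exact ⟨a, h1, h2⟩

theorem res25' : ∀ (i : ZMod 25) (a : Fin 5), (i - 5 * ((a : ℕ) : ZMod 25)).val % 5 = i.val % 5 := by
  decide +kernel

theorem res49 (i i' : ZMod 49) (h : i'.val % 7 = i.val % 7) :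
    ∃! a : Fin 7, i - 7 * ((a : ℕ) : ZMod 49) = i' := by
  have key : ∀ i i' : ZMod 49, i'.val % 7 = i.val % 7 → ∃ a : Fin 7,
      i - 7 * ((a : ℕ) : ZMod 49) = i' ∧
      ∀ b : Fin 7, i - 7 * ((b : ℕ) : ZMod 49) = i' → b = a := by
    decide +kernel
  obtain ⟨a, h1, h2⟩ := key i i' h
  exact ⟨a, h1, h2⟩

theorem res49' : ∀ (i : ZMod 49) (a : Fin 7), (i - 7 * ((a : ℕ) : ZMod 49)).val % 7 = i.val % 7 := by
  decide +kernel

/-- move inside a cell -/
def mc (x : ZMod 4 × ZMod 9) (q : Fin 2 × Fin 3) : ZMod 4 × ZMod 9 :=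
  (x.1 - 2 * ((q.1 : ℕ) : ZMod 4), x.2 - 3 * ((q.2 : ℕ) : ZMod 9))

/-- move inside a layer -/
def ml (y : ZMod 25 × ZMod 49) (q : Fin 5 × Fin 7) : ZMod 25 × ZMod 49 :=
  (y.1 - 5 * ((q.1 : ℕ) : ZMod 25), y.2 - 7 * ((q.2 : ℕ) : ZMod 49))

theorem cell_mc (x : ZMod 4 × ZMod 9) (q : Fin 2 × Fin 3) : cell (mc x q) = cell x := by
  simp only [cell, mc, res4', res9']

theorem lay_ml (y : ZMod 25 × ZMod 49) (q : Fin 5 × Fin 7) : lay (ml y q) = lay y := by
  simp only [lay, ml, res25', res49']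

theorem ex_mc (x x' : ZMod 4 × ZMod 9) (h : cell x' = cell x) : ∃! q, mc x q = x' := by
  have h1 : x'.1.val % 2 = x.1.val % 2 := by
    have := congrArg (fun z : Fin 2 × Fin 3 => (z.1 : ℕ)) h
    simpa [cell] using this
  have h2 : x'.2.val % 3 = x.2.val % 3 := by
    have := congrArg (fun z : Fin 2 × Fin 3 => (z.2 : ℕ)) h
    simpa [cell] using this
  obtain ⟨a, ha, hau⟩ := res4 _ _ h1
  obtain ⟨b, hb, hbu⟩ := res9 _ _ h2
  refine ⟨(a, b), Prod.ext ha hb, ?_⟩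
  rintro ⟨a', b'⟩ hq
  exact Prod.ext (hau a' (congrArg Prod.fst hq)) (hbu b' (congrArg Prod.snd hq))

theorem ex_ml (y y' : ZMod 25 × ZMod 49) (h : lay y' = lay y) : ∃! q, ml y q = y' := by
  have h1 : y'.1.val % 5 = y.1.val % 5 := by
    have := congrArg (fun z : Fin 5 × Fin 7 => (z.1 : ℕ)) h
    simpa [lay] using this
  have h2 : y'.2.val % 7 = y.2.val % 7 := by
    have := congrArg (fun z : Fin 5 × Fin 7 => (z.2 : ℕ)) h
    simpa [lay] using this
  obtain ⟨a, ha, hau⟩ := res25 _ _ h1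
  obtain ⟨b, hb, hbu⟩ := res49 _ _ h2
  refine ⟨(a, b), Prod.ext ha hb, ?_⟩
  rintro ⟨a', b'⟩ hq
  exact Prod.ext (hau a' (congrArg Prod.fst hq)) (hbu b' (congrArg Prod.snd hq))

/-- number of the kind of a layer -/
def kind (l : Fin 5 × Fin 7) : Fin 17 := ⟨tab l.2 l.1, tab_lt l.2 l.1⟩

/-- common gluing of class 0 and class 1 -/
theorem generic {H H' : Type} [AddGroup H] [AddGroup H'] (sH : Fin 2 × Fin 3 → H)
    (sH' : Fin 5 × Fin 7 → H') (D : Fin 17 → H → ZMod 4 × ZMod 9 → Bool)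
    (B : Fin 2 × Fin 3 → H' → ZMod 25 × ZMod 49 → Bool) (W : Fin 17 → ZMod 9 → Prop)
    (good : Fin 2 × Fin 3 → Prop)
    (hD : ∀ n h (x : ZMod 4 × ZMod 9), W n x.2 → ∃! q : Fin 2 × Fin 3,
      D n (h - sH q) (x.1 - ((q.1 : ℕ) : ZMod 4), x.2 - ((q.2 : ℕ) : ZMod 9)) = true)
    (hD' : ∀ n h (x : ZMod 4 × ZMod 9), ¬ W n x.2 → ∀ q : Fin 2 × Fin 3,
      D n (h - sH q) (x.1 - ((q.1 : ℕ) : ZMod 4), x.2 - ((q.2 : ℕ) : ZMod 9)) = false)
    (hg : ∀ n h x, D n h x = true → good (cell x))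
    (hB : ∀ c h' (y : ZMod 25 × ZMod 49), good c → ∃! q : Fin 5 × Fin 7,
      B c (h' - sH' q) (y.1 - ((q.1 : ℕ) : ZMod 25), y.2 - ((q.2 : ℕ) : ZMod 49)) = true)
    (hcard : ∀ h h' c l, good c →
      (Finset.univ.filter fun x => D (kind l) h x = true ∧ cell x = c).card =
      (Finset.univ.filter fun y => B c h' y = true ∧ lay y = l).card) :
    ∃ A : H → H' → K → Prop,
      (∀ (h : H) (h' : H') (r : K),
        (W (kind (lay (r.2.2.1, r.2.2.2))) r.2.1 →
          ∃! i : Ix, A (h - sH (i.1, i.2.1)) h' (r - kap (row true i))) ∧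
        (¬ W (kind (lay (r.2.2.1, r.2.2.2))) r.2.1 →
          ∀ i : Ix, ¬ A (h - sH (i.1, i.2.1)) h' (r - kap (row true i)))) ∧
      (∀ (h : H) (h' : H') (r : K),
        (good (cell (r.1, r.2.1)) →
          ∃! i : Ix, A h (h' - sH' i.2.2) (r - kap (row false i))) ∧
        (¬ good (cell (r.1, r.2.1)) →
          ∀ i : Ix, ¬ A h (h' - sH' i.2.2) (r - kap (row false i)))) := by
  have hR : ∀ (h : H) (h' : H'), ∃ R : ZMod 4 × ZMod 9 → ZMod 25 × ZMod 49 → Prop,
      (∀ x y, R x y → good (cell x) ∧ D (kind (lay y)) h x = true ∧ B (cell x) h' y = true) ∧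
      (∀ x l, good (cell x) → D (kind l) h x = true → ∃! y, lay y = l ∧ R x y) ∧
      (∀ y c, good c → B c h' y = true → ∃! x, cell x = c ∧ R x y) := by
    intro h h'
    exact glue (fun l x => D (kind l) h x) (fun c y => B c h' y) cell lay good
      (fun c l hc => hcard h h' c l hc)
  choose R hR1 hR2 hR3 using hR
  have kt : ∀ (r : K) (i : Ix), ((r - kap (row true i)).1, (r - kap (row true i)).2.1) =
      (r.1 - ((i.1 : ℕ) : ZMod 4), r.2.1 - ((i.2.1 : ℕ) : ZMod 9)) ∧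
      ((r - kap (row true i)).2.2.1, (r - kap (row true i)).2.2.2) =
      ml (r.2.2.1, r.2.2.2) i.2.2 := by
    intro r i
    rw [kap_true]
    exact ⟨rfl, rfl⟩
  have kf : ∀ (r : K) (i : Ix), ((r - kap (row false i)).1, (r - kap (row false i)).2.1) =
      mc (r.1, r.2.1) (i.1, i.2.1) ∧
      ((r - kap (row false i)).2.2.1, (r - kap (row false i)).2.2.2) =
      (r.2.2.1 - ((i.2.2.1 : ℕ) : ZMod 25), r.2.2.2 - ((i.2.2.2 : ℕ) : ZMod 49)) := by
    intro r i
    rw [kap_false]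
    exact ⟨rfl, rfl⟩
  refine ⟨fun h h' r => R h h' (r.1, r.2.1) (r.2.2.1, r.2.2.2), ?_, ?_⟩
  · intro h h' r
    constructor
    · intro hW
      obtain ⟨q, hq, hqu⟩ := hD (kind (lay (r.2.2.1, r.2.2.2))) h (r.1, r.2.1) hW
      obtain ⟨y, ⟨hy1, hy2⟩, hyu⟩ := hR2 (h - sH q) h' _ (lay (r.2.2.1, r.2.2.2))
        (hg _ _ _ hq) hq
      obtain ⟨p, hp, hpu⟩ := ex_ml (r.2.2.1, r.2.2.2) y hy1
      refine ⟨(q.1, q.2, p), ?_, ?_⟩
      · show R _ _ _ _
        rw [(kt r (q.1, q.2, p)).1, (kt r (q.1, q.2, p)).2, hp]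
        exact hy2
      · rintro ⟨a, b, p'⟩ hi
        change R _ _ _ _ at hi
        rw [(kt r (a, b, p')).1, (kt r (a, b, p')).2] at hi
        have h1 := (hR1 _ _ _ _ hi).2.1
        rw [lay_ml] at h1
        have h2 : (a, b) = q := hqu (a, b) h1
        subst h2
        have h3 : ml (r.2.2.1, r.2.2.2) p' = y := hyu _ ⟨lay_ml _ _, hi⟩
        have h4 := hpu p' h3
        rw [h4]
    · intro hW i hi
      change R _ _ _ _ at hi
      rw [(kt r i).1, (kt r i).2] at hi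
      have h1 := (hR1 _ _ _ _ hi).2.1
      rw [lay_ml] at h1
      have h2 := hD' (kind (lay (r.2.2.1, r.2.2.2))) h (r.1, r.2.1) hW (i.1, i.2.1)
      rw [h2] at h1
      exact Bool.noConfusion h1
  · intro h h' r
    constructor
    · intro hG
      obtain ⟨q, hq, hqu⟩ := hB (cell (r.1, r.2.1)) h' (r.2.2.1, r.2.2.2) hG
      obtain ⟨x, ⟨hx1, hx2⟩, hxu⟩ := hR3 h (h' - sH' q) _ (cell (r.1, r.2.1)) hG hq
      obtain ⟨p, hp, hpu⟩ := ex_mc (r.1, r.2.1) x hx1
      refine ⟨(p.1, p.2, q), ?_, ?_⟩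
      · show R _ _ _ _
        rw [(kf r (p.1, p.2, q)).1, (kf r (p.1, p.2, q)).2]
        show R h (h' - sH' q) (mc (r.1, r.2.1) p) _
        rw [hp]
        exact hx2
      · rintro ⟨a, b, q'⟩ hi
        change R _ _ _ _ at hi
        rw [(kf r (a, b, q')).1, (kf r (a, b, q')).2] at hi
        have h1 := (hR1 _ _ _ _ hi).2.2
        rw [cell_mc] at h1
        have h2 : q' = q := hqu q' h1
        subst h2
        have h3 : mc (r.1, r.2.1) (a, b) = x := hxu _ ⟨cell_mc _ _, hi⟩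
        have h4 : (a, b) = p := hpu (a, b) h3
        rw [← h4]
    · intro hG i hi
      change R _ _ _ _ at hi
      rw [(kf r i).1, (kf r i).2] at hi
      have h1 := (hR1 _ _ _ _ hi).1
      rw [cell_mc] at h1
      exact hG h1

theorem st_FG0 : StFG0 := by
  intro d0' d2' d3' b1' b2'
  obtain ⟨A, hA1, hA2⟩ := generic (H := ZMod 9) (H' := ZMod 49)
    (fun q => ((q.2 : ℕ) : ZMod 9)) (fun q => ((q.2 : ℕ) : ZMod 49))
    (fun n h x => d0 n h x.1 x.2) (fun c h' y => b0 c.1 c.2 h' y.1 y.2)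
    (fun n j => x2 n j = true) (fun c => cc c.1 c.2 = false)
    (fun n h x hx => (d0' n h x.2 x.1).1 hx)
    (fun n h x hx => (d0' n h x.2 x.1).2 (by simpa using hx))
    (fun n h x hx => d2'.1 n h x.1 x.2 hx)
    (fun c h' y hc => b1'.1 c.1 c.2 h' y.2 y.1 hc)
    (by
      intro h h' c l hc
      have e1 := d3'.1 (kind l) h c.1 c.2 hc
      have e2 := b2'.1 c.1 c.2 h' l.1 l.2 hc
      have e3 : (Finset.univ.filter fun x : ZMod 4 × ZMod 9 =>
          d0 (kind l) h x.1 x.2 = true ∧ cell x = c) =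
          (Finset.univ.filter fun p : ZMod 4 × ZMod 9 =>
            d0 (kind l) h p.1 p.2 = true ∧ p.1.val % 2 = c.1 ∧ p.2.val % 3 = c.2) := by
        refine Finset.filter_congr fun x _ => ?_
        simp [cell, Prod.ext_iff, Fin.ext_iff]
      have e4 : (Finset.univ.filter fun y : ZMod 25 × ZMod 49 =>
          b0 c.1 c.2 h' y.1 y.2 = true ∧ lay y = l) =
          (Finset.univ.filter fun p : ZMod 25 × ZMod 49 =>
            b0 c.1 c.2 h' p.1 p.2 = true ∧ p.1.val % 5 = l.1 ∧ p.2.val % 7 = l.2) := by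
        refine Finset.filter_congr fun x _ => ?_
        simp [lay, Prod.ext_iff, Fin.ext_iff]
      rw [e3, e4, e1, e2]
      rfl)
  refine ⟨A, ?_, ?_⟩
  · intro h h' r
    refine ⟨(hA1 h h' r).1, fun hf => (hA1 h h' r).2 ?_⟩
    intro ht
    have : x2 (tab (r.2.2.2.val % 7) (r.2.2.1.val % 5)) r.2.1 = true := ht
    rw [hf] at this
    exact Bool.noConfusion this
  · intro h h' r
    refine ⟨(hA2 h h' r).1, fun hf => (hA2 h h' r).2 ?_⟩
    intro ht
    have : cc (r.1.val % 2) (r.2.1.val % 3) = false := ht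
    rw [hf] at this
    exact Bool.noConfusion this

theorem st_FG1 : StFG1 := by
  intro d1' d2' d3' b1' b2'
  obtain ⟨A, hA1, hA2⟩ := generic (H := ZMod 4) (H' := ZMod 25)
    (fun q => ((q.1 : ℕ) : ZMod 4)) (fun q => ((q.1 : ℕ) : ZMod 25))
    (fun n h x => d1 n h x.1 x.2) (fun c h' y => b1 c.1 h' y.1 y.2)
    (fun n j => x2 n j = false) (fun c => cc c.1 c.2 = true)
    (fun n h x hx => (d1' n h x.1 x.2).1 hx)
    (fun n h x hx => (d1' n h x.1 x.2).2 (by simpa using hx))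
    (fun n h x hx => d2'.2 n h x.1 x.2 hx)
    (fun c h' y hc => b1'.2 c.1 c.2 h' y.1 y.2 hc)
    (by
      intro h h' c l hc
      have e1 := d3'.2 (kind l) h c.1 c.2 hc
      have e2 := b2'.2 c.1 c.2 h' l.1 l.2 hc
      have e3 : (Finset.univ.filter fun x : ZMod 4 × ZMod 9 =>
          d1 (kind l) h x.1 x.2 = true ∧ cell x = c) =
          (Finset.univ.filter fun p : ZMod 4 × ZMod 9 =>
            d1 (kind l) h p.1 p.2 = true ∧ p.1.val % 2 = c.1 ∧ p.2.val % 3 = c.2) := by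
        refine Finset.filter_congr fun x _ => ?_
        simp [cell, Prod.ext_iff, Fin.ext_iff]
      have e4 : (Finset.univ.filter fun y : ZMod 25 × ZMod 49 =>
          b1 c.1 h' y.1 y.2 = true ∧ lay y = l) =
          (Finset.univ.filter fun p : ZMod 25 × ZMod 49 =>
            b1 c.1 h' p.1 p.2 = true ∧ p.1.val % 5 = l.1 ∧ p.2.val % 7 = l.2) := by
        refine Finset.filter_congr fun x _ => ?_
        simp [lay, Prod.ext_iff, Fin.ext_iff]
      rw [e3, e4, e1, e2]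
      rfl)
  refine ⟨A, ?_, ?_⟩
  · intro h h' r
    refine ⟨(hA1 h h' r).1, fun hf => (hA1 h h' r).2 ?_⟩
    intro ht
    have : x2 (tab (r.2.2.2.val % 7) (r.2.2.1.val % 5)) r.2.1 = false := ht
    rw [hf] at this
    exact Bool.noConfusion this
  · intro h h' r
    refine ⟨(hA2 h h' r).1, fun hf => (hA2 h h' r).2 ?_⟩
    intro ht
    have : cc (r.1.val % 2) (r.2.1.val % 3) = true := ht
    rw [hf] at this
    exact Bool.noConfusion this

end Vale.Agent.P043.T2.H225
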